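import Vale.Agent.Lib.P074.Exist.Finite

/-!
# P074 / Exist: approximation of a target by finitely supported ones, and the Cauchy estimate
-/

open MeasureTheory Set
open scoped ENNReal NNReal

namespace Vale.Agent.Lib.P074.Exist

open Vale.Agent.Lib.P074 Vale.Agent.Lib.P074.Third

variable {d : ℕ}

/-- `Third.exists_net_proj` gives `r, F`; apply `exists_isBr_of_finite` to `γ = μ.map r`. -/
theorem exists_approx {K : Set (E d)} {RK M : ℝ≥0} (hK : IsBody K RK) {Y : Set (E d)}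
    (hY : IsCompact Y) (hYne : Y.Nonempty) (hYM : ∀ y ∈ Y, ‖y‖ ≤ M) (μ : Measure (E d))
    [IsProbabilityMeasure μ] {ε : ℝ} (hε : 0 < ε) :
    ∃ (r : E d → E d) (φ : E d → ℝ) (T : E d → E d), Measurable r ∧ (∀ y, r y ∈ Y) ∧
      (∀ y ∈ Y, ‖r y - y‖ ≤ ε) ∧ IsBr K M (0 : E d → ℝ) (μ.map r) φ T := by
  obtain ⟨r, F, hr, hrF, hFY, hrε⟩ := exists_net_proj hY hYne hε
  have : IsProbabilityMeasure (μ.map r) := Measure.isProbabilityMeasure_map hr.aemeasurable
  have hF : (μ.map r) (↑F)ᶜ = 0 := by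
    rw [Measure.map_apply hr F.measurableSet.compl]
    have : r ⁻¹' (↑F)ᶜ = ∅ := by
      ext y
      simp only [mem_preimage, mem_compl_iff, Finset.mem_coe, mem_empty_iff_false, iff_false,
        not_not]
      exact hrF y
    rw [this, measure_empty]
  obtain ⟨φ, T, hBr⟩ := exists_isBr_of_finite hK (μ.map r) F hF (fun p hp => hYM p (hFY hp))
  exact ⟨r, φ, T, hr, fun y => hFY (hrF y), hrε, hBr⟩

end Vale.Agent.Lib.P074.Exist
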