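import Vale.Agent.Lib.P074.Third.Admissible

/-!
# P074 / Exist: the quadratic cost of a transport map in terms of the correlation
-/

open MeasureTheory Set
open scoped ENNReal NNReal

namespace Vale.Agent.Lib.P074.Exist

open Vale.Agent.Lib.P074 Vale.Agent.Lib.P074.Third

variable {d : ℕ}

/-- `‖x - S x‖^2 = ‖x‖^2 - 2 <x, S x> + ‖S x‖^2` (`norm_sub_sq_real`), `∫ ‖S x‖^2 dρ = ∫ ‖y‖^2 dμ` (`integral_map`),
`ofReal_integral_eq_lintegral_ofReal`, `enorm_sq_eq`; everything is a.e. bounded (`ae_norm_le_of_map`, `hK.bound`). -/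
theorem cost_eq {K : Set (E d)} {RK M : ℝ≥0} (hK : IsBody K RK) {Y : Set (E d)}
    (hY : IsCompact Y) (hYM : ∀ y ∈ Y, ‖y‖ ≤ M) (μ : Measure (E d)) (hμ : μ Yᶜ = 0)
    (S : E d → E d) (hS : Measurable S) (hSmap : (unif K).map S = μ) :
    cost (unif K) S = ENNReal.ofReal (∫ x, ‖x‖ ^ 2 ∂(unif K) + ∫ y, ‖y‖ ^ 2 ∂μ
      - 2 * ∫ x, inner ℝ x (S x) ∂(unif K)) := by
  have hfin : IsFiniteMeasure (unif K) := unif_isFinite K
  have hbS : ∀ᵐ x ∂(unif K), ‖S x‖ ≤ (M : ℝ) := ae_norm_le_of_map hS hSmap hY hμ hYM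
  have hbx : ∀ᵐ x ∂(unif K), ‖x‖ ≤ (RK : ℝ) := by
    filter_upwards [ae_unif_mem_of_compact hK.compact] with x hx
    exact hK.bound x hx
  -- integrability of the three pieces
  have i1 : Integrable (fun x : E d => ‖x‖ ^ 2) (unif K) := by
    apply Integrable.of_bound (measurable_norm.pow_const 2).aestronglyMeasurable ((RK : ℝ) ^ 2)
    filter_upwards [hbx] with x hx
    rw [Real.norm_eq_abs, abs_of_nonneg (by positivity)]
    exact pow_le_pow_left₀ (norm_nonneg _) hx 2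
  have i2 : Integrable (fun x : E d => ‖S x‖ ^ 2) (unif K) := by
    apply Integrable.of_bound (hS.norm.pow_const 2).aestronglyMeasurable ((M : ℝ) ^ 2)
    filter_upwards [hbS] with x hx
    rw [Real.norm_eq_abs, abs_of_nonneg (by positivity)]
    exact pow_le_pow_left₀ (norm_nonneg _) hx 2
  have hmi : Measurable (fun x : E d => (inner ℝ x (S x) : ℝ)) := measurable_id.inner hS
  have i3 : Integrable (fun x : E d => (inner ℝ x (S x) : ℝ)) (unif K) := by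
    apply Integrable.of_bound hmi.aestronglyMeasurable ((RK : ℝ) * (M : ℝ))
    filter_upwards [hbx, hbS] with x hx hSx
    calc ‖(inner ℝ x (S x) : ℝ)‖ ≤ ‖x‖ * ‖S x‖ := norm_inner_le_norm x (S x)
      _ ≤ (RK : ℝ) * (M : ℝ) := mul_le_mul hx hSx (norm_nonneg _) (NNReal.coe_nonneg _)
  -- the integral of `‖y‖^2` against `μ`
  have e2 : ∫ y, ‖y‖ ^ 2 ∂μ = ∫ x, ‖S x‖ ^ 2 ∂(unif K) := by
    rw [← hSmap]
    exact integral_map hS.aemeasurable (measurable_norm.pow_const 2).aestronglyMeasurable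
  have hpt : ∀ x : E d, ‖x - S x‖ ^ 2 = ‖x‖ ^ 2 + ‖S x‖ ^ 2 - 2 * (inner ℝ x (S x) : ℝ) := by
    intro x
    rw [norm_sub_sq_real]
    ring
  have i4 : Integrable (fun x : E d => ‖x - S x‖ ^ 2) (unif K) := by
    have : (fun x : E d => ‖x - S x‖ ^ 2)
        = fun x => ‖x‖ ^ 2 + ‖S x‖ ^ 2 - 2 * (inner ℝ x (S x) : ℝ) := funext hpt
    rw [this]
    exact (i1.add i2).sub (i3.const_mul 2)
  have e4 : ∫ x, ‖x - S x‖ ^ 2 ∂(unif K)
      = ∫ x, ‖x‖ ^ 2 ∂(unif K) + ∫ y, ‖y‖ ^ 2 ∂μ - 2 * ∫ x, inner ℝ x (S x) ∂(unif K) := by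
    rw [e2]
    simp_rw [hpt]
    have h1 : ∫ x, (‖x‖ ^ 2 + ‖S x‖ ^ 2 - 2 * (inner ℝ x (S x) : ℝ)) ∂(unif K)
        = ∫ x, (‖x‖ ^ 2 + ‖S x‖ ^ 2) ∂(unif K) - ∫ x, 2 * (inner ℝ x (S x) : ℝ) ∂(unif K) :=
      integral_sub (i1.add i2) (i3.const_mul 2)
    have h2 : ∫ x, (‖x‖ ^ 2 + ‖S x‖ ^ 2) ∂(unif K)
        = ∫ x, ‖x‖ ^ 2 ∂(unif K) + ∫ x, ‖S x‖ ^ 2 ∂(unif K) := integral_add i1 i2
    rw [h1, h2, integral_const_mul]
  rw [← e4, ofReal_integral_eq_lintegral_ofReal i4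
    (Filter.Eventually.of_forall fun x => by positivity)]
  unfold cost
  apply lintegral_congr
  intro x
  rw [ENNReal.ofReal_pow (norm_nonneg _), ofReal_norm]

end Vale.Agent.Lib.P074.Exist
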