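import Vale.Agent.Lib.P074.Third.Admissible
import Vale.Agent.Lib.P074.Third.Quant

/-!
# P074 / Exist: the Cauchy estimate for the maps of two quantisations of the same target
-/

open MeasureTheory Set
open scoped ENNReal NNReal

namespace Vale.Agent.Lib.P074.Exist

open Vale.Agent.Lib.P074 Vale.Agent.Lib.P074.Third

variable {d : ℕ}

/-- `stability_W1` (with `src_zero` to rewrite `IsBr.map`), `Third.W1_map_map_le` and
`‖r y - r' y‖ ≤ ε + ε'` for `μ`-almost every `y` (those in `Y`). -/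
theorem approx_dist_le {K : Set (E d)} {RK M : ℝ≥0} (hK : IsBody K RK) {Y : Set (E d)}
    (hY : IsCompact Y) (hYM : ∀ y ∈ Y, ‖y‖ ≤ M) (μ : Measure (E d)) [IsProbabilityMeasure μ]
    (hμ : μ Yᶜ = 0) {r r' : E d → E d} {φ φ' : E d → ℝ} {T T' : E d → E d} {ε ε' : ℝ}
    (hr : Measurable r) (hr' : Measurable r') (hrY : ∀ y, r y ∈ Y) (hrY' : ∀ y, r' y ∈ Y)
    (hrε : ∀ y ∈ Y, ‖r y - y‖ ≤ ε) (hrε' : ∀ y ∈ Y, ‖r' y - y‖ ≤ ε')
    (hB : IsBr K M (0 : E d → ℝ) (μ.map r) φ T) (hB' : IsBr K M (0 : E d → ℝ) (μ.map r') φ' T') :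
    eLpNorm (fun x => T x - T' x) 2 (unif K) ≤
      (stabConst K RK M : ℝ≥0∞) * ENNReal.ofReal (ε + ε') ^ (1 / 4 : ℝ) := by
  have hm : (unif K).map T = μ.map r := by rw [← src_zero K]; exact hB.map
  have hm' : (unif K).map T' = μ.map r' := by rw [← src_zero K]; exact hB'.map
  have hc : (μ.map r) Yᶜ = 0 := by
    rw [Measure.map_apply hr hY.measurableSet.compl]
    have : r ⁻¹' Yᶜ = ∅ := by
      ext y
      simp [hrY y]
    rw [this]
    exact measure_empty
  have hc' : (μ.map r') Yᶜ = 0 := by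
    rw [Measure.map_apply hr' hY.measurableSet.compl]
    have : r' ⁻¹' Yᶜ = ∅ := by
      ext y
      simp [hrY' y]
    rw [this]
    exact measure_empty
  have h1 := stability_W1 hK.compact hK.int hY hK.bound hYM hc hc' hB.meas hB'.meas hm hm'
    hB.sub hB'.sub
  have h2 : W1 (μ.map r) (μ.map r') ≤ ENNReal.ofReal (ε + ε') := by
    refine (W1_map_map_le μ hr hr').trans ?_
    have hYae : ∀ᵐ y ∂μ, y ∈ Y := by
      rw [ae_iff]
      exact hμ
    have hae : ∀ᵐ y ∂μ, enorm (r y - r' y) ≤ ENNReal.ofReal (ε + ε') := by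
      filter_upwards [hYae] with y hy
      have h3 : ‖r y - r' y‖ ≤ ε + ε' := by
        have e : r y - r' y = (r y - y) - (r' y - y) := by abel
        rw [e]
        exact (norm_sub_le _ _).trans (add_le_add (hrε y hy) (hrε' y hy))
      rw [← ofReal_norm]
      exact ENNReal.ofReal_le_ofReal h3
    calc ∫⁻ w, enorm (r w - r' w) ∂μ ≤ ∫⁻ _w, ENNReal.ofReal (ε + ε') ∂μ := lintegral_mono_ae hae
      _ = ENNReal.ofReal (ε + ε') := by simp
  refine h1.trans ?_
  exact mul_le_mul_right (ENNReal.rpow_le_rpow h2 (by norm_num)) _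

end Vale.Agent.Lib.P074.Exist
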