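import Vale.Agent.Lib.P074.Third.Admissible
import Vale.Agent.Lib.P074.Third.Quant

/-!
# P074 / Exist: finitely supported targets have Brenier type maps
-/

open MeasureTheory Set
open scoped ENNReal NNReal

namespace Vale.Agent.Lib.P074.Exist

open Vale.Agent.Lib.P074 Vale.Agent.Lib.P074.Third

variable {d : ℕ}

/-- A probability measure `γ` carried by a finite subset `F` of the ball of radius `M` is the image of `unif K`
under a Brenier type map.
Plan: `I = {p // p ∈ F.filter (fun p => 0 < γ {p})}` (classical), `π i = (γ {i.1}).toReal`, `y i = i.1`;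
`Third.eq_sum_dirac γ F hF` gives `γ = ∑ p ∈ F, γ {p} • dirac p`, hence `discMeas π y = γ` (drop the zero terms,
`Finset.sum_filter`, `Finset.sum_coe_sort`, `ENNReal.ofReal_toReal`), `∑ π = 1` (evaluate at `univ`), `I` nonempty.
Then `step_pair hK (isPert_zero K) π hπ hsum y` gives a package and `IsPackage.isBr` the map.
(The proof of `Third.discretise` contains the same construction.) -/
theorem exists_isBr_of_finite {K : Set (E d)} {RK M : ℝ≥0} (hK : IsBody K RK)
    (γ : Measure (E d)) [IsProbabilityMeasure γ] (F : Finset (E d)) (hF : γ (↑F)ᶜ = 0)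
    (hFM : ∀ p ∈ F, ‖p‖ ≤ M) :
    ∃ (φ : E d → ℝ) (T : E d → E d), IsBr K M (0 : E d → ℝ) γ φ T := by
  classical
  set w : E d → ℝ≥0∞ := fun p => γ {p} with hw
  have hwfin : ∀ p, w p ≠ ∞ := fun p => measure_ne_top _ _
  set G : Finset (E d) := F.filter (fun p => 0 < w p) with hG
  have hγ : γ = ∑ p ∈ G, w p • Measure.dirac p := by
    conv_lhs => rw [eq_sum_dirac γ F hF]
    rw [hG, Finset.sum_filter]
    apply Finset.sum_congr rfl
    intro p _
    by_cases hp : 0 < w p
    · simp only [hp, if_true]
      rfl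
    · have h0 : w p = 0 := by simpa using hp
      simp only [hp, if_false]
      rw [show γ {p} = 0 from h0, zero_smul]
  have hsumw : ∑ p ∈ G, w p = 1 := by
    have hprob : γ univ = 1 := measure_univ
    rw [hγ, Measure.finsetSum_apply] at hprob
    simpa using hprob
  have hGne : G.Nonempty := by
    by_contra hcon
    rw [Finset.not_nonempty_iff_eq_empty] at hcon
    rw [hcon] at hsumw
    simp at hsumw
  have hdisc : discMeas (fun i : G => (w i.1).toReal) (fun i : G => i.1) = γ := by
    unfold discMeas
    conv_rhs => rw [hγ]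
    rw [← Finset.sum_coe_sort G]
    apply Finset.sum_congr rfl
    intro i _
    rw [ENNReal.ofReal_toReal (hwfin _)]
  have hne : Nonempty G := hGne.coe_sort
  have hπ : ∀ i : G, 0 < (w i.1).toReal := by
    intro i
    have := (Finset.mem_filter.mp i.2).2
    exact ENNReal.toReal_pos this.ne' (hwfin _)
  have hsum : ∑ i : G, (w i.1).toReal = 1 := by
    rw [← ENNReal.toReal_sum (fun i _ => hwfin _), Finset.sum_coe_sort G (fun p => w p), hsumw]
    simp
  obtain ⟨a0, a1, b0, b1, hP0, -, -⟩ :=
    step_pair hK (isPert_zero K) (fun i : G => (w i.1).toReal) hπ hsum (fun i : G => i.1)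
  obtain ⟨T, hT⟩ := hP0.isBr (M := M) (fun i => hFM _ (Finset.mem_filter.mp i.2).1)
  rw [hdisc] at hT
  exact ⟨_, T, hT⟩

end Vale.Agent.Lib.P074.Exist
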