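import Vale.Agent.Lib.P074.Third.Admissible

/-!
# P074 / Exist: Kantorovich duality inequality for a Brenier type map of a quantised target
-/

open MeasureTheory Set
open scoped ENNReal NNReal

namespace Vale.Agent.Lib.P074.Exist

open Vale.Agent.Lib.P074 Vale.Agent.Lib.P074.Third

variable {d : ℕ}

/-- With `ρ = unif K`, `ψ = conjBall RK φ` (`RK`-Lipschitz, `conjBall_lipschitz`; `φ` is continuous since Lipschitz):
`<x, S x> ≤ φ x + ψ (S x)` for `x ∈ K` (`le_conjBall`), `<x, T x> = φ x + ψ (T x)` a.e. (`conjBall_eq`),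
`∫ ψ (S x) dρ = ∫ ψ dμ`, `∫ ψ (T x) dρ = ∫ ψ d(μ.map r) = ∫ ψ (r y) dμ` (`integral_map`, `src_zero`), and
`ψ y - ψ (r y) ≤ RK ε` for `y ∈ Y`.  All integrands are measurable and a.e. bounded. -/
theorem inner_le_of_isBr {K : Set (E d)} {RK M : ℝ≥0} (hK : IsBody K RK) {Y : Set (E d)}
    (hY : IsCompact Y) (hYM : ∀ y ∈ Y, ‖y‖ ≤ M) (μ : Measure (E d)) [IsProbabilityMeasure μ]
    (hμ : μ Yᶜ = 0) {r : E d → E d} {φ : E d → ℝ} {T : E d → E d} {ε : ℝ} (hr : Measurable r)
    (hrY : ∀ y, r y ∈ Y) (hrε : ∀ y ∈ Y, ‖r y - y‖ ≤ ε)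
    (hB : IsBr K M (0 : E d → ℝ) (μ.map r) φ T) (S : E d → E d) (hS : Measurable S)
    (hSmap : (unif K).map S = μ) :
    ∫ x, inner ℝ x (S x) ∂(unif K) ≤ ∫ x, inner ℝ x (T x) ∂(unif K) + RK * ε := by
  have hprob : IsProbabilityMeasure (unif K) := hK.isProb
  have hφc : Continuous φ := hB.lip.continuous
  obtain ⟨ψ, hψ⟩ : ∃ ψ : E d → ℝ, ψ = conjBall (RK : ℝ) φ := ⟨_, rfl⟩
  have hψl : LipschitzWith RK ψ := by rw [hψ]; exact conjBall_lipschitz hφc
  have hψc : Continuous ψ := hψl.continuous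
  have hmem : ∀ᵐ x ∂(unif K), x ∈ K := ae_unif_mem_of_compact hK.compact
  have hTmap : (unif K).map T = μ.map r := by
    have := hB.map
    rwa [src_zero] at this
  have hSb : ∀ᵐ x ∂(unif K), ‖S x‖ ≤ M := ae_norm_le_of_map hS hSmap hY hμ hYM
  have hYae : ∀ᵐ y ∂μ, y ∈ Y := by
    have := measure_eq_zero_iff_ae_notMem.mp hμ
    filter_upwards [this] with y hy
    simpa using hy
  have hφi : Integrable φ (unif K) := by
    have := integrable_src_of_continuous hK (isPert_zero K) hφc
    rwa [src_zero] at this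
  obtain ⟨C, hC⟩ := hY.exists_bound_of_continuousOn hψc.continuousOn
  have hψμ : Integrable ψ μ :=
    Integrable.of_bound hψc.aestronglyMeasurable C (by
      filter_upwards [hYae] with y hy using hC y hy)
  have hψr : Integrable (fun y => ψ (r y)) μ :=
    Integrable.of_bound (hψc.measurable.comp hr).aestronglyMeasurable C
      (Filter.Eventually.of_forall fun y => hC (r y) (hrY y))
  have hψS : Integrable (fun x => ψ (S x)) (unif K) := by
    have h : Integrable ψ ((unif K).map S) := by rw [hSmap]; exact hψμ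
    exact h.comp_measurable hS
  have hψT : Integrable (fun x => ψ (T x)) (unif K) := by
    have h : Integrable ψ ((unif K).map T) := by
      rw [hTmap]
      exact (integrable_map_measure hψc.aestronglyMeasurable hr.aemeasurable).mpr hψr
    exact h.comp_measurable hB.meas
  have hSm : Measurable fun x : E d => (inner ℝ x (S x) : ℝ) := measurable_id.inner hS
  have hSi : Integrable (fun x : E d => (inner ℝ x (S x) : ℝ)) (unif K) := by
    apply Integrable.of_bound hSm.aestronglyMeasurable ((RK : ℝ) * M)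
    filter_upwards [hmem, hSb] with x hx hs
    rw [Real.norm_eq_abs]
    calc |inner ℝ x (S x)| ≤ ‖x‖ * ‖S x‖ := abs_real_inner_le_norm _ _
      _ ≤ RK * M := mul_le_mul (hK.bound x hx) hs (norm_nonneg _) RK.coe_nonneg
  have h1 : ∫ x, inner ℝ x (S x) ∂(unif K) ≤ ∫ x, (φ x + ψ (S x)) ∂(unif K) := by
    apply integral_mono_ae hSi (hφi.add hψS)
    filter_upwards [hmem] with x hx
    have := le_conjBall (RK : ℝ) hφc (S x) x (hK.bound x hx)
    rw [← hψ] at this
    show inner ℝ x (S x) ≤ φ x + ψ (S x)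
    linarith
  have h2 : ∫ x, inner ℝ x (T x) ∂(unif K) = ∫ x, (φ x + ψ (T x)) ∂(unif K) := by
    apply integral_congr_ae
    filter_upwards [hmem, hB.sub] with x hx hs
    have := conjBall_eq RK.coe_nonneg hφc x (T x) (hK.bound x hx) hs
    rw [← hψ] at this
    show inner ℝ x (T x) = φ x + ψ (T x)
    linarith
  rw [integral_add hφi hψS] at h1
  rw [integral_add hφi hψT] at h2
  have e1 : ∫ x, ψ (S x) ∂(unif K) = ∫ y, ψ y ∂μ := by
    rw [← hSmap, integral_map hS.aemeasurable hψc.aestronglyMeasurable]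
  have e2 : ∫ x, ψ (T x) ∂(unif K) = ∫ y, ψ (r y) ∂μ := by
    rw [← integral_map hB.meas.aemeasurable hψc.aestronglyMeasurable, hTmap,
      integral_map hr.aemeasurable hψc.aestronglyMeasurable]
  have h3 : ∫ y, ψ y ∂μ - ∫ y, ψ (r y) ∂μ ≤ RK * ε := by
    rw [← integral_sub hψμ hψr]
    calc ∫ y, (ψ y - ψ (r y)) ∂μ ≤ ∫ _y, ((RK : ℝ) * ε) ∂μ := by
          apply integral_mono_ae (hψμ.sub hψr) (integrable_const _)
          filter_upwards [hYae] with y hy
          have h4 := hψl.dist_le_mul y (r y)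
          rw [Real.dist_eq, dist_eq_norm, norm_sub_rev] at h4
          have h5 : (RK : ℝ) * ‖r y - y‖ ≤ RK * ε :=
            mul_le_mul_of_nonneg_left (hrε y hy) RK.coe_nonneg
          show ψ y - ψ (r y) ≤ RK * ε
          exact (le_abs_self _).trans (h4.trans h5)
      _ = RK * ε := by simp
  linarith

end Vale.Agent.Lib.P074.Exist
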