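import Mathlib

/-!
# P074 / Exist: the choice of the mesh sizes
-/

open Filter Topology
open scoped ENNReal NNReal

namespace Vale.Agent.Lib.P074.Exist

/-- Take `ε n = (a * (1/2)^n)^4 / 2` with `a = 1 / (C + 1)`: for `N ≤ n, m`, `ε n + ε m ≤ (a (1/2)^N)^4`, so
`C * ofReal (ε n + ε m)^(1/4) ≤ C * ofReal (a (1/2)^N) = ofReal (C/(C+1) (1/2)^N) < (1/2)^N`. -/
lemma numeric_cauchy (C : ℝ≥0) : ∃ ε : ℕ → ℝ, (∀ n, 0 < ε n) ∧ Tendsto ε atTop (𝓝 0) ∧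
    ∀ N n m : ℕ, N ≤ n → N ≤ m →
      (C : ℝ≥0∞) * ENNReal.ofReal (ε n + ε m) ^ (1 / 4 : ℝ) < (1 / 2 : ℝ≥0∞) ^ N := by
  obtain ⟨a, ha⟩ : ∃ a : ℝ, a = 1 / ((C : ℝ) + 1) := ⟨_, rfl⟩
  have hC : (0 : ℝ) ≤ C := C.2
  have ha0 : 0 < a := by rw [ha]; positivity
  refine ⟨fun n => (a * (1 / 2) ^ n) ^ 4 / 2, fun n => by positivity, ?_, ?_⟩
  · have h1 : Tendsto (fun n : ℕ => (1 / 2 : ℝ) ^ n) atTop (𝓝 0) :=
      tendsto_pow_atTop_nhds_zero_of_lt_one (by norm_num) (by norm_num)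
    have h2 : Tendsto (fun n : ℕ => (a * (1 / 2 : ℝ) ^ n) ^ 4 / 2) atTop (𝓝 ((a * 0) ^ 4 / 2)) :=
      ((h1.const_mul a).pow 4).div_const 2
    simpa using h2
  · intro N n m hn hm
    have hpn : (1 / 2 : ℝ) ^ n ≤ (1 / 2) ^ N := pow_le_pow_of_le_one (by norm_num) (by norm_num) hn
    have hpm : (1 / 2 : ℝ) ^ m ≤ (1 / 2) ^ N := pow_le_pow_of_le_one (by norm_num) (by norm_num) hm
    have hx0 : 0 ≤ a * (1 / 2 : ℝ) ^ N := by positivity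
    have h1 : (a * (1 / 2 : ℝ) ^ n) ^ 4 ≤ (a * (1 / 2) ^ N) ^ 4 := by gcongr
    have h2 : (a * (1 / 2 : ℝ) ^ m) ^ 4 ≤ (a * (1 / 2) ^ N) ^ 4 := by gcongr
    have hsum : (a * (1 / 2 : ℝ) ^ n) ^ 4 / 2 + (a * (1 / 2 : ℝ) ^ m) ^ 4 / 2
        ≤ (a * (1 / 2) ^ N) ^ 4 := by linarith
    have h3 : ENNReal.ofReal ((a * (1 / 2 : ℝ) ^ n) ^ 4 / 2 + (a * (1 / 2 : ℝ) ^ m) ^ 4 / 2)
        ^ (1 / 4 : ℝ) ≤ ENNReal.ofReal (a * (1 / 2) ^ N) := by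
      calc ENNReal.ofReal ((a * (1 / 2 : ℝ) ^ n) ^ 4 / 2 + (a * (1 / 2 : ℝ) ^ m) ^ 4 / 2)
            ^ (1 / 4 : ℝ)
          ≤ ENNReal.ofReal ((a * (1 / 2) ^ N) ^ 4) ^ (1 / 4 : ℝ) :=
            ENNReal.rpow_le_rpow (ENNReal.ofReal_le_ofReal hsum) (by norm_num)
        _ = ENNReal.ofReal (((a * (1 / 2) ^ N) ^ 4) ^ (1 / 4 : ℝ)) :=
            ENNReal.ofReal_rpow_of_nonneg (by positivity) (by norm_num)
        _ = ENNReal.ofReal (a * (1 / 2) ^ N) := by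
            congr 1
            rw [← Real.rpow_natCast, ← Real.rpow_mul hx0]
            norm_num
    have hCa : (C : ℝ) * a < 1 := by
      rw [ha, mul_one_div, div_lt_one (by positivity)]
      linarith
    have hp : (0 : ℝ) < (1 / 2) ^ N := by positivity
    calc (C : ℝ≥0∞) * ENNReal.ofReal ((a * (1 / 2 : ℝ) ^ n) ^ 4 / 2 + (a * (1 / 2 : ℝ) ^ m) ^ 4 / 2)
            ^ (1 / 4 : ℝ)
        ≤ (C : ℝ≥0∞) * ENNReal.ofReal (a * (1 / 2) ^ N) := by gcongr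
      _ = ENNReal.ofReal (C * (a * (1 / 2) ^ N)) := by
            rw [ENNReal.ofReal_mul hC, ENNReal.ofReal_coe_nnreal]
      _ < ENNReal.ofReal ((1 / 2) ^ N) := by
            apply (ENNReal.ofReal_lt_ofReal_iff hp).2
            nlinarith
      _ = (1 / 2 : ℝ≥0∞) ^ N := by
            rw [ENNReal.ofReal_pow (by norm_num)]
            congr 1
            rw [ENNReal.ofReal_div_of_pos (by norm_num)]
            simp

end Vale.Agent.Lib.P074.Exist
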