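import Vale.Agent.Lib.P074.Exist.Approx
import Vale.Agent.Lib.P074.Exist.Dist
import Vale.Agent.Lib.P074.Exist.Numeric

/-!
# P074 / Exist: the limit of the maps of finer and finer quantisations of the target
-/

open MeasureTheory Set Filter Topology
open scoped ENNReal NNReal

namespace Vale.Agent.Lib.P074.Exist

open Vale.Agent.Lib.P074 Vale.Agent.Lib.P074.Third

variable {d : ℕ}

/-- `numeric_cauchy (stabConst K RK M)` gives `ε`; `choose r φ T ..` with `exists_approx`; `approx_dist_le` gives the Cauchy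
condition with `B N = (1/2)^N` (`ENNReal.tsum_geometric`); `MeasureTheory.Lp.ae_tendsto_of_cauchy_eLpNorm` and
`exists_stronglyMeasurable_limit_of_tendsto_ae` give the limit. -/
theorem exists_limit {K : Set (E d)} {RK M : ℝ≥0} (hK : IsBody K RK) {Y : Set (E d)}
    (hY : IsCompact Y) (hYne : Y.Nonempty) (hYM : ∀ y ∈ Y, ‖y‖ ≤ M) (μ : Measure (E d))
    [IsProbabilityMeasure μ] (hμ : μ Yᶜ = 0) :
    ∃ (r : ℕ → E d → E d) (φ : ℕ → E d → ℝ) (T : ℕ → E d → E d) (ε : ℕ → ℝ) (Tl : E d → E d),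
      (∀ n, Measurable (r n)) ∧ (∀ n y, r n y ∈ Y) ∧ (∀ n, ∀ y ∈ Y, ‖r n y - y‖ ≤ ε n) ∧
      Tendsto ε atTop (𝓝 0) ∧ (∀ n, IsBr K M (0 : E d → ℝ) (μ.map (r n)) (φ n) (T n)) ∧
      Measurable Tl ∧ ∀ᵐ x ∂(unif K), Tendsto (fun n => T n x) atTop (𝓝 (Tl x)) := by
  obtain ⟨ε, hε0, hεlim, hεc⟩ := numeric_cauchy (stabConst K RK M)
  choose r φ T hr hrY hrε hB using fun n => exists_approx hK hY hYne hYM μ (hε0 n)
  have hcau : ∀ N n m : ℕ, N ≤ n → N ≤ m →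
      eLpNorm (T n - T m) 2 (unif K) < (1 / 2 : ℝ≥0∞) ^ N := by
    intro N n m hn hm
    have h1 := approx_dist_le hK hY hYM μ hμ (hr n) (hr m) (hrY n) (hrY m) (hrε n) (hrε m)
      (hB n) (hB m)
    exact lt_of_le_of_lt h1 (hεc N n m hn hm)
  have hsum : ∑' i : ℕ, (1 / 2 : ℝ≥0∞) ^ i ≠ ∞ := by
    rw [ENNReal.tsum_geometric]
    have h2 : (1 : ℝ≥0∞) - 1 / 2 ≠ 0 := by
      rw [one_div, ENNReal.one_sub_inv_two]
      simp
    exact ENNReal.inv_ne_top.2 h2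
  have hae := MeasureTheory.Lp.ae_tendsto_of_cauchy_eLpNorm (μ := unif K) (p := 2)
    (fun n => (hB n).meas.aestronglyMeasurable) (by norm_num) hsum hcau
  obtain ⟨Tl, hTl, hlim⟩ := measurable_limit_of_tendsto_metrizable_ae
    (fun n => (hB n).meas.aemeasurable) hae
  exact ⟨r, φ, T, ε, Tl, hr, hrY, hrε, hεlim, hB, hTl, hlim⟩

end Vale.Agent.Lib.P074.Exist
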