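import Vale.Agent.Lib.P074.Defs

/-!
# P074 / Exist: the image measure under an almost everywhere limit
-/

open MeasureTheory Set Filter Topology
open scoped ENNReal NNReal

namespace Vale.Agent.Lib.P074.Exist

open Vale.Agent.Lib.P074

variable {d : ℕ}

/-- `ext_of_forall_integral_eq_of_IsFiniteMeasure`: for `f` bounded continuous,
`∫ f d(ρ.map (T n)) = ∫ f (T n x) dρ → ∫ f (Tl x) dρ` and `∫ f d(μ.map (r n)) = ∫ f (r n y) dμ → ∫ f dμ`
(`integral_map`, `tendsto_integral_of_dominated_convergence` with the constant bound `‖f‖`), `tendsto_nhds_unique`. -/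
theorem map_limit (ρ μ : Measure (E d)) [IsProbabilityMeasure ρ] [IsProbabilityMeasure μ]
    {Y : Set (E d)} (hμ : μ Yᶜ = 0) (r : ℕ → E d → E d) (T : ℕ → E d → E d) (ε : ℕ → ℝ)
    (Tl : E d → E d) (hr : ∀ n, Measurable (r n)) (hrε : ∀ n, ∀ y ∈ Y, ‖r n y - y‖ ≤ ε n)
    (hε : Tendsto ε atTop (𝓝 0)) (hT : ∀ n, Measurable (T n))
    (hmap : ∀ n, ρ.map (T n) = μ.map (r n)) (hTl : Measurable Tl)
    (hlim : ∀ᵐ x ∂ρ, Tendsto (fun n => T n x) atTop (𝓝 (Tl x))) : ρ.map Tl = μ := by
  have : IsProbabilityMeasure (ρ.map Tl) := Measure.isProbabilityMeasure_map hTl.aemeasurable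
  apply ext_of_forall_integral_eq_of_IsFiniteMeasure
  intro f
  have hfm : Measurable (fun y => f y) := f.continuous.measurable
  -- left side
  have hL : Tendsto (fun n => ∫ x, f (T n x) ∂ρ) atTop (𝓝 (∫ x, f (Tl x) ∂ρ)) := by
    apply tendsto_integral_of_dominated_convergence (fun _ => ‖f‖)
    · intro n
      exact (hfm.comp (hT n)).aestronglyMeasurable
    · exact integrable_const _
    · intro n
      exact Eventually.of_forall (fun x => f.norm_coe_le_norm _)
    · filter_upwards [hlim] with x hx
      exact (f.continuous.tendsto _).comp hx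
  -- right side
  have hY : ∀ᵐ y ∂μ, y ∈ Y := by
    rw [ae_iff]
    exact hμ
  have hR : Tendsto (fun n => ∫ y, f (r n y) ∂μ) atTop (𝓝 (∫ y, f y ∂μ)) := by
    apply tendsto_integral_of_dominated_convergence (fun _ => ‖f‖)
    · intro n
      exact (hfm.comp (hr n)).aestronglyMeasurable
    · exact integrable_const _
    · intro n
      exact Eventually.of_forall (fun x => f.norm_coe_le_norm _)
    · filter_upwards [hY] with y hy
      have h1 : Tendsto (fun n => r n y) atTop (𝓝 y) := by
        rw [tendsto_iff_norm_sub_tendsto_zero]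
        exact squeeze_zero (fun n => norm_nonneg _) (fun n => hrε n y hy) hε
      exact (f.continuous.tendsto _).comp h1
  have heq : ∀ n, ∫ x, f (T n x) ∂ρ = ∫ y, f (r n y) ∂μ := by
    intro n
    rw [← integral_map (hT n).aemeasurable hfm.aestronglyMeasurable,
      ← integral_map (hr n).aemeasurable hfm.aestronglyMeasurable, hmap n]
  rw [integral_map hTl.aemeasurable hfm.aestronglyMeasurable]
  refine tendsto_nhds_unique hL ?_
  simp only [heq]
  exact hR

end Vale.Agent.Lib.P074.Exist
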