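import Vale.Agent.Lib.P074.Third.Admissible

/-!
# P074 / Exist: two optimal maps to the same target agree almost everywhere
-/

open MeasureTheory Set
open scoped ENNReal NNReal

namespace Vale.Agent.Lib.P074.Exist

open Vale.Agent.Lib.P074 Vale.Agent.Lib.P074.Third

variable {d : ℕ}

/-- `W2 μ μ = 0` (diagonal coupling `μ.map (fun y => (y, y))`) -/
lemma W2_self (μ : Measure (E d)) : W2 μ μ = 0 := by
  have hdiag : Measurable (fun y : E d => (y, y)) := measurable_id.prodMk measurable_id
  have h1 : (μ.map (fun y : E d => (y, y))).map Prod.fst = μ := by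
    rw [Measure.map_map measurable_fst hdiag]
    exact Measure.map_id
  have h2 : (μ.map (fun y : E d => (y, y))).map Prod.snd = μ := by
    rw [Measure.map_map measurable_snd hdiag]
    exact Measure.map_id
  have hmeas : Measurable (fun p : E d × E d => enorm (p.1 - p.2) ^ 2) := by fun_prop
  have h3 : ∫⁻ p, enorm (p.1 - p.2) ^ 2 ∂(μ.map (fun y : E d => (y, y))) = 0 := by
    rw [lintegral_map hmeas hdiag]
    simp
  have h4 : (⨅ π : {π : Measure (E d × E d) // π.map Prod.fst = μ ∧ π.map Prod.snd = μ},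
      ∫⁻ p, enorm (p.1 - p.2) ^ 2 ∂π.1) = 0 := by
    apply le_antisymm _ bot_le
    exact iInf_le_of_le ⟨μ.map (fun y : E d => (y, y)), h1, h2⟩ (le_of_eq h3)
  unfold W2
  rw [h4]
  exact ENNReal.zero_rpow_of_pos (by norm_num)

/-- `admissible_third` with `ν = μ`, `W2_self`, `ENNReal.zero_rpow_of_pos`, `eLpNorm_eq_zero_iff`. -/
theorem ae_eq_of_isOTMap (K : Set (E d)) (hK : IsCompact K) (hKc : Convex ℝ K)
    (hKi : (interior K).Nonempty) (Y : Set (E d)) (hY : IsCompact Y) (hYne : Y.Nonempty)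
    (μ : Measure (E d)) (hμp : IsProbabilityMeasure μ) (hμ : μ Yᶜ = 0) (T T' : E d → E d)
    (hT : IsOTMap (unif K) μ T) (hT' : IsOTMap (unif K) μ T') : T =ᵐ[unif K] T' := by
  obtain ⟨C, hC⟩ := admissible_third d K hK hKc hKi Y hY hYne
  have h := hC μ μ hμp hμp hμ hμ T T' hT hT'
  rw [W2_self, ENNReal.zero_rpow_of_pos (by norm_num), mul_zero] at h
  have h0 : eLpNorm (fun x => T x - T' x) 2 (unif K) = 0 := le_antisymm h bot_le
  have hm : AEStronglyMeasurable (fun x => T x - T' x) (unif K) :=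
    (hT.1.sub hT'.1).aestronglyMeasurable
  rw [eLpNorm_eq_zero_iff hm (by norm_num)] at h0
  filter_upwards [h0] with x hx
  exact sub_eq_zero.1 hx

end Vale.Agent.Lib.P074.Exist
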