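import Vale.Agent.Lib.P074.Exist.Limit
import Vale.Agent.Lib.P074.Exist.MapLimit
import Vale.Agent.Lib.P074.Exist.InnerLe
import Vale.Agent.Lib.P074.Exist.CostEq
import Vale.Agent.Lib.P074.Exist.Unique

/-!
# P074 / Exist: existence of the quadratic optimal transport map (Brenier), via quantitative stability
-/

open MeasureTheory Set Filter Topology
open scoped ENNReal NNReal

namespace Vale.Agent.Lib.P074.Exist

open Vale.Agent.Lib.P074 Vale.Agent.Lib.P074.Third

variable {d : ℕ}

lemma ae_mem_body {K : Set (E d)} {RK : ℝ≥0} (hK : IsBody K RK) : ∀ᵐ x ∂(unif K), x ∈ K := by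
  have h := src_compl hK (0 : E d → ℝ)
  rw [src_zero] at h
  have := measure_eq_zero_iff_ae_notMem.mp h
  filter_upwards [this] with x hx
  simpa using hx

/-- dominated convergence for the correlations -/
theorem tendsto_inner {K : Set (E d)} {RK M : ℝ≥0} (hK : IsBody K RK) (T : ℕ → E d → E d)
    (Tl : E d → E d) (hT : ∀ n, Measurable (T n)) (hb : ∀ n, ∀ᵐ x ∂(unif K), ‖T n x‖ ≤ M)
    (hlim : ∀ᵐ x ∂(unif K), Tendsto (fun n => T n x) atTop (𝓝 (Tl x))) :
    Tendsto (fun n => ∫ x, inner ℝ x (T n x) ∂(unif K)) atTop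
      (𝓝 (∫ x, inner ℝ x (Tl x) ∂(unif K))) := by
  have hprob : IsProbabilityMeasure (unif K) := hK.isProb
  refine tendsto_integral_of_dominated_convergence (fun _ => (RK : ℝ) * M) ?_
    (integrable_const _) ?_ ?_
  · intro n
    exact (measurable_id.inner (hT n)).aestronglyMeasurable
  · intro n
    filter_upwards [hb n, ae_mem_body hK] with x hx hxK
    rw [Real.norm_eq_abs]
    exact (abs_real_inner_le_norm _ _).trans
      (mul_le_mul (hK.bound x hxK) hx (norm_nonneg _) RK.2)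
  · filter_upwards [hlim] with x hx
    exact (continuous_const.inner continuous_id).continuousAt.tendsto.comp hx

/-- **Existence of the optimal map.** -/
theorem exists_isOTMap (K : Set (E d)) (hK : IsCompact K) (hKc : Convex ℝ K)
    (hKi : (interior K).Nonempty) (Y : Set (E d)) (hY : IsCompact Y) (hYne : Y.Nonempty)
    (μ : Measure (E d)) (hμp : IsProbabilityMeasure μ) (hμ : μ Yᶜ = 0) :
    ∃ T : E d → E d, IsOTMap (unif K) μ T := by
  obtain ⟨RK0, hKR0⟩ := exists_nnreal_bound hK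
  obtain ⟨M, hYM⟩ := exists_nnreal_bound hY
  set RK : ℝ≥0 := RK0 + 1 with hRK
  have hBody : IsBody K RK :=
    ⟨hK, hKc, hKi, by positivity, fun x hx => (hKR0 x hx).trans (by simp [hRK])⟩
  have hprob : IsProbabilityMeasure (unif K) := hBody.isProb
  obtain ⟨r, φ, T, ε, Tl, hr, hrY, hrε, hε, hB, hTl, hlim⟩ := exists_limit hBody hY hYne hYM μ hμ
  have hmapn : ∀ n, (unif K).map (T n) = μ.map (r n) := by
    intro n
    have := (hB n).map
    rwa [src_zero] at this
  have hmap : (unif K).map Tl = μ :=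
    map_limit (unif K) μ hμ r T ε Tl hr hrε hε (fun n => (hB n).meas) hmapn hTl hlim
  refine ⟨Tl, hTl, hmap, ?_⟩
  intro S hS hSmap
  have h1 : ∀ n, ∫ x, inner ℝ x (S x) ∂(unif K) ≤
      ∫ x, inner ℝ x (T n x) ∂(unif K) + RK * ε n := fun n =>
    inner_le_of_isBr hBody hY hYM μ hμ (hr n) (hrY n) (hrε n) (hB n) S hS hSmap
  have h2 : Tendsto (fun n => ∫ x, inner ℝ x (T n x) ∂(unif K) + RK * ε n) atTop
      (𝓝 (∫ x, inner ℝ x (Tl x) ∂(unif K) + RK * 0)) :=
    (tendsto_inner hBody T Tl (fun n => (hB n).meas) (fun n => (hB n).ae_bound) hlim).add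
      (hε.const_mul _)
  have h3 : ∫ x, inner ℝ x (S x) ∂(unif K) ≤ ∫ x, inner ℝ x (Tl x) ∂(unif K) := by
    have := ge_of_tendsto' h2 h1
    simpa using this
  rw [cost_eq hBody hY hYM μ hμ Tl hTl hmap, cost_eq hBody hY hYM μ hμ S hS hSmap]
  apply ENNReal.ofReal_le_ofReal
  linarith

end Vale.Agent.Lib.P074.Exist
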