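import Vale.Agent.Lib.P074.StabilityW1

/-!
# P074 / Exist: admissibility is monotone in the exponent
-/

open MeasureTheory Set
open scoped ENNReal NNReal

namespace Vale.Agent.Lib.P074.Exist

open Vale.Agent.Lib.P074

variable {d : ℕ}

/-- `W_2 ≤ 2 M` for probability measures carried by a subset of the ball of radius `M` (product coupling) -/
lemma W2_le_of_bound {Y : Set (E d)} (hYm : MeasurableSet Y) {M : ℝ≥0} (hYM : ∀ y ∈ Y, ‖y‖ ≤ M)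
    (μ ν : Measure (E d)) [IsProbabilityMeasure μ] [IsProbabilityMeasure ν] (hμ : μ Yᶜ = 0)
    (hν : ν Yᶜ = 0) : W2 μ ν ≤ ((2 * M : ℝ≥0) : ℝ≥0∞) := by
  have hc : (μ.prod ν).map Prod.fst = μ ∧ (μ.prod ν).map Prod.snd = ν := ⟨by simp, by simp⟩
  have h1 : (⨅ π : {π : Measure (E d × E d) // π.map Prod.fst = μ ∧ π.map Prod.snd = ν},
      ∫⁻ p, enorm (p.1 - p.2) ^ 2 ∂π.1) ≤ ∫⁻ p, enorm (p.1 - p.2) ^ 2 ∂(μ.prod ν) :=
    iInf_le (fun π : {π : Measure (E d × E d) // π.map Prod.fst = μ ∧ π.map Prod.snd = ν} =>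
      ∫⁻ p, enorm (p.1 - p.2) ^ 2 ∂π.1) ⟨_, hc⟩
  have hae : ∀ᵐ p ∂(μ.prod ν), p.1 ∈ Y ∧ p.2 ∈ Y := by
    have hz : (μ.prod ν) ((Yᶜ ×ˢ univ) ∪ (univ ×ˢ Yᶜ)) = 0 := by
      apply measure_union_null
      · rw [Measure.prod_prod, hμ, zero_mul]
      · rw [Measure.prod_prod, hν, mul_zero]
    have := measure_eq_zero_iff_ae_notMem.mp hz
    filter_upwards [this] with p hp
    simp only [mem_union, mem_prod, mem_compl_iff, mem_univ, and_true, true_and, not_or,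
      not_not] at hp
    exact hp
  have h2 : ∫⁻ p, enorm (p.1 - p.2) ^ 2 ∂(μ.prod ν) ≤ ((2 * M : ℝ≥0) : ℝ≥0∞) ^ 2 := by
    calc ∫⁻ p, enorm (p.1 - p.2) ^ 2 ∂(μ.prod ν)
        ≤ ∫⁻ _, ((2 * M : ℝ≥0) : ℝ≥0∞) ^ 2 ∂(μ.prod ν) := by
          apply lintegral_mono_ae
          filter_upwards [hae] with p hp
          have h3 : ‖p.1 - p.2‖ ≤ ((2 * M : ℝ≥0) : ℝ) := by
            have := norm_sub_le p.1 p.2
            have a1 := hYM _ hp.1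
            have a2 := hYM _ hp.2
            push_cast
            linarith
          have h4 : enorm (p.1 - p.2) ≤ ((2 * M : ℝ≥0) : ℝ≥0∞) := by
            rw [← ofReal_norm, ← ENNReal.ofReal_coe_nnreal]
            exact ENNReal.ofReal_le_ofReal h3
          exact pow_le_pow_left₀ zero_le h4 2
      _ = ((2 * M : ℝ≥0) : ℝ≥0∞) ^ 2 := by simp
  unfold W2
  calc _ ≤ (((2 * M : ℝ≥0) : ℝ≥0∞) ^ 2) ^ (1 / 2 : ℝ) :=
        ENNReal.rpow_le_rpow (h1.trans h2) (by norm_num)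
    _ = ((2 * M : ℝ≥0) : ℝ≥0∞) := by
        rw [← ENNReal.rpow_natCast, ← ENNReal.rpow_mul]
        norm_num

/-- a positive exponent below an admissible one is admissible -/
theorem admissible_mono {α β : ℝ} (hα : 0 < α) (hαβ : α ≤ β) (h : Admissible d β) :
    Admissible d α := by
  intro K hK hKc hKi Y hY hYne
  obtain ⟨C, hC⟩ := h K hK hKc hKi Y hY hYne
  obtain ⟨M, hYM⟩ := exists_nnreal_bound hY
  refine ⟨C * (2 * M) ^ (β - α), ?_⟩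
  intro μ ν hμp hνp hμ hν Tμ Tν hTμ hTν
  refine (hC μ ν hμp hνp hμ hν Tμ Tν hTμ hTν).trans ?_
  have hW := W2_le_of_bound hY.isClosed.measurableSet hYM μ ν hμ hν
  have e : W2 μ ν ^ β = W2 μ ν ^ α * W2 μ ν ^ (β - α) := by
    rw [← ENNReal.rpow_add_of_nonneg _ _ hα.le (by linarith)]
    congr 1
    ring
  have h5 : W2 μ ν ^ (β - α) ≤ (((2 * M) ^ (β - α) : ℝ≥0) : ℝ≥0∞) := by
    rw [ENNReal.coe_rpow_of_nonneg _ (by linarith : 0 ≤ β - α)]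
    exact ENNReal.rpow_le_rpow hW (by linarith)
  rw [e, ENNReal.coe_mul]
  calc (C : ℝ≥0∞) * (W2 μ ν ^ α * W2 μ ν ^ (β - α))
      ≤ (C : ℝ≥0∞) * (W2 μ ν ^ α * (((2 * M) ^ (β - α) : ℝ≥0) : ℝ≥0∞)) := by gcongr
    _ = (C : ℝ≥0∞) * (((2 * M) ^ (β - α) : ℝ≥0) : ℝ≥0∞) * W2 μ ν ^ α := by ring

end Vale.Agent.Lib.P074.Exist
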